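import Vale.Agent.P021.Main

namespace Vale.Agent.Results.P021.PiExponent

/-- The exponents `ν > 0` such that `0 < |x - p/q| < q ^ (-ν)` holds for infinitely many pairs
of coprime integers `p, q` with `q ≥ 2`. -/
def approxExponents (x : ℝ) : Set ℝ :=
  {ν : ℝ | 0 < ν ∧ Set.Infinite {y : ℤ × ℤ | IsCoprime y.1 y.2 ∧ 2 ≤ y.2 ∧
    0 < |x - (y.1 : ℝ) / (y.2 : ℝ)| ∧ |x - (y.1 : ℝ) / (y.2 : ℝ)| < (y.2 : ℝ) ^ (-ν)}}

/-- The irrationality exponent of `π` equals `2`. -/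
theorem result :
    IsLUB (approxExponents Real.pi) 2 ∧ sSup (approxExponents Real.pi) = 2 := by
  have h : IsGreatest (approxExponents Real.pi) 2 :=
    ⟨⟨two_pos, Vale.Agent.P021.lower irrational_pi⟩,
      fun ν hν => not_lt.mp fun h => Vale.Agent.P021.upper h hν.2⟩
  exact ⟨h.isLUB, h.csSup_eq⟩

end Vale.Agent.Results.P021.PiExponent
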